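import Vale.Agent.P159.Defs

/-!
Cuts: a unit flow from `0` to `x` in a box, with bond energy `t² / (2 + |t|)`, has energy at least
a logarithm of the distance (disjoint square cuts around `0` and around `x`).
-/

open scoped BigOperators

namespace Vale.Agent.P159.H399

open Vale.Agent.P159

theorem tangent {t a : ℝ} (ht : 0 ≤ t) (ha : 0 ≤ a) :
    -2 * a ^ 2 / (2 + a) ^ 2 + (a ^ 2 + 4 * a) / (2 + a) ^ 2 * t ≤ t ^ 2 / (2 + t) := by
  have h1 : 0 < 2 + t := by linarith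
  have h2 : 0 < 2 + a := by linarith
  rw [div_mul_eq_mul_div, ← add_div, div_le_div_iff₀ (by positivity) h1]
  nlinarith [sq_nonneg (t - a)]

theorem sum_ge {ι : Type*} (S : Finset ι) (a t : ι → ℝ) (ha : ∀ i, 0 ≤ a i) (ht : ∀ i, 0 ≤ t i)
    {n b : ℝ} (hn : 0 < n) (hb : 0 < b) (hA : ∑ i ∈ S, a i ≤ n)
    (hT : 1 / b ≤ ∑ i ∈ S, a i * t i) :
    1 / (b * (2 * b * n + 1)) ≤ ∑ i ∈ S, a i * (t i ^ 2 / (2 + t i)) := by
  set c : ℝ := 1 / (b * n) with hc
  have hc0 : 0 < c := by positivity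
  have h1 : ∑ i ∈ S, a i * (-2 * c ^ 2 / (2 + c) ^ 2 + (c ^ 2 + 4 * c) / (2 + c) ^ 2 * t i) ≤
      ∑ i ∈ S, a i * (t i ^ 2 / (2 + t i)) :=
    Finset.sum_le_sum fun i _ => mul_le_mul_of_nonneg_left (tangent (ht i) hc0.le) (ha i)
  refine le_trans ?_ h1
  have h2 : ∑ i ∈ S, a i * (-2 * c ^ 2 / (2 + c) ^ 2 + (c ^ 2 + 4 * c) / (2 + c) ^ 2 * t i) =
      -2 * c ^ 2 / (2 + c) ^ 2 * ∑ i ∈ S, a i +
        (c ^ 2 + 4 * c) / (2 + c) ^ 2 * ∑ i ∈ S, a i * t i := by
    rw [Finset.mul_sum, Finset.mul_sum, ← Finset.sum_add_distrib]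
    refine Finset.sum_congr rfl fun i _ => ?_
    ring
  rw [h2]
  have h3 : -2 * c ^ 2 / (2 + c) ^ 2 * n ≤ -2 * c ^ 2 / (2 + c) ^ 2 * ∑ i ∈ S, a i := by
    have : -2 * c ^ 2 / (2 + c) ^ 2 ≤ 0 := by
      apply div_nonpos_of_nonpos_of_nonneg <;> nlinarith [sq_nonneg c]
    nlinarith
  have h4 : (c ^ 2 + 4 * c) / (2 + c) ^ 2 * (1 / b) ≤
      (c ^ 2 + 4 * c) / (2 + c) ^ 2 * ∑ i ∈ S, a i * t i :=
    mul_le_mul_of_nonneg_left hT (by positivity)
  refine le_trans (le_of_eq ?_) (add_le_add h3 h4)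
  rw [hc]
  field_simp
  ring

/-- sup distance -/
def dist' (c u : ℤ × ℤ) : ℕ := max (u.1 - c.1).natAbs (u.2 - c.2).natAbs

/-- indicator of the square of centre `c` and radius `k` -/
noncomputable def q (c : ℤ × ℤ) (k : ℕ) (u : ℤ × ℤ) : ℝ := if dist' c u ≤ k then 1 else 0

theorem nn_mul (b : ℝ) (u v : ℤ × ℤ) : nn b u v = b * nn 1 u v := by
  unfold nn
  split_ifs <;> simp

theorem nn_one_nonneg (u v : ℤ × ℤ) : 0 ≤ nn 1 u v := by
  unfold nn
  split_ifs <;> simp

theorem flow {R : ℕ} {b : ℝ} {x : ℤ × ℤ} (s : box R → box R → ℝ)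
    (hanti : ∀ u v, s v u = -s u v)
    (hdiv : ∀ w : box R, ∑ v : box R, (nn b w v + nn b v w) * s w v =
      (if (w : ℤ × ℤ) = 0 then 1 else 0) - (if (w : ℤ × ℤ) = x then 1 else 0))
    (f : ℤ × ℤ → ℝ) (h0 : (0 : ℤ × ℤ) ∈ box R) (hx : x ∈ box R) :
    ∑ u : box R, ∑ v : box R, nn b u v * ((f u - f v) * s u v) = f 0 - f x := by
  have h1 : ∑ w : box R, f w * ∑ v : box R, (nn b w v + nn b v w) * s w v = f 0 - f x := by
    simp only [hdiv, mul_sub, Finset.sum_sub_distrib, mul_ite, mul_one, mul_zero]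
    congr 1
    · rw [Finset.sum_coe_sort (box R) (fun w => if w = 0 then f w else 0),
        Finset.sum_ite_eq' (box R) 0 f, if_pos h0]
    · rw [Finset.sum_coe_sort (box R) (fun w => if w = x then f w else 0),
        Finset.sum_ite_eq' (box R) x f, if_pos hx]
  rw [← h1]
  have h2 : ∑ w : box R, f w * ∑ v : box R, (nn b w v + nn b v w) * s w v =
      (∑ w : box R, ∑ v : box R, f w * (nn b w v * s w v)) +
        ∑ w : box R, ∑ v : box R, f w * (nn b v w * s w v) := by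
    rw [← Finset.sum_add_distrib]
    refine Finset.sum_congr rfl fun w _ => ?_
    rw [Finset.mul_sum, ← Finset.sum_add_distrib]
    refine Finset.sum_congr rfl fun v _ => ?_
    ring
  rw [h2, Finset.sum_comm (f := fun (w v : box R) => f w * (nn b v w * s w v)),
    ← Finset.sum_add_distrib]
  refine Finset.sum_congr rfl fun u _ => ?_
  rw [← Finset.sum_add_distrib]
  refine Finset.sum_congr rfl fun v _ => ?_
  rw [hanti u v]
  ring

theorem sum_nn_le {R : ℕ} (u : ℤ × ℤ) (F : ℤ × ℤ → ℝ) (hF : ∀ v, 0 ≤ F v) :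
    ∑ v : box R, nn 1 u v * F v ≤ F (u + (1, 0)) + F (u + (0, 1)) := by
  rw [Finset.sum_coe_sort (box R) (fun v => nn 1 u v * F v)]
  have h1 : ∀ v ∈ box R, nn 1 u v * F v ≤
      (if v = u + (1, 0) then F v else 0) + (if v = u + (0, 1) then F v else 0) := by
    intro v _
    unfold nn
    by_cases h1 : v = u + (1, 0) <;> by_cases h2 : v = u + (0, 1)
    all_goals simp only [h1, h2, true_or, or_true, or_self, if_true, if_false, one_mul, zero_mul,
      add_zero, le_refl, le_add_iff_nonneg_left]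
    all_goals first
      | exact le_rfl
      | (have := hF v; simp_all)
  refine le_trans (Finset.sum_le_sum h1) ?_
  rw [Finset.sum_add_distrib, Finset.sum_ite_eq' (box R) _ F, Finset.sum_ite_eq' (box R) _ F]
  have := hF (u + (1, 0))
  have := hF (u + (0, 1))
  split_ifs <;> linarith

theorem abs_q_sub (c : ℤ × ℤ) (k : ℕ) (u v : ℤ × ℤ) :
    |q c k u - q c k v| = if (dist' c u ≤ k ↔ dist' c v ≤ k) then 0 else 1 := by
  unfold q
  by_cases h1 : dist' c u ≤ k <;> by_cases h2 : dist' c v ≤ k <;> simp [h1, h2]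

theorem count_aux (R : ℕ) (c : ℤ × ℤ) (k : ℕ) (e : ℤ × ℤ) (S : Finset (ℤ × ℤ))
    (hS : ∀ u : ℤ × ℤ, ¬(dist' c u ≤ k ↔ dist' c (u + e) ≤ k) → u ∈ S) :
    ∑ u ∈ box R, |q c k u - q c k (u + e)| ≤ S.card := by
  have h1 : ∀ u ∈ box R, |q c k u - q c k (u + e)| ≤ if u ∈ S then 1 else 0 := by
    intro u _
    rw [abs_q_sub]
    by_cases h : dist' c u ≤ k ↔ dist' c (u + e) ≤ k
    · rw [if_pos h]
      split_ifs <;> simp
    · rw [if_neg h, if_pos (hS u h)]
  refine le_trans (Finset.sum_le_sum h1) ?_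
  rw [Finset.sum_ite_mem]
  simp only [Finset.sum_const, nsmul_eq_mul, mul_one]
  exact_mod_cast Finset.card_le_card Finset.inter_subset_right

theorem count (R : ℕ) (c : ℤ × ℤ) (k : ℕ) :
    ∑ u : box R, ∑ v : box R, nn 1 u v * |q c k u - q c k v| ≤ 8 * k + 4 := by
  have h1 : ∑ u : box R, ∑ v : box R, nn 1 u v * |q c k u - q c k v| ≤
      ∑ u : box R, (|q c k u - q c k ((u : ℤ × ℤ) + (1, 0))| +
        |q c k u - q c k ((u : ℤ × ℤ) + (0, 1))|) :=
    Finset.sum_le_sum fun u _ => sum_nn_le (u : ℤ × ℤ) (fun v => |q c k u - q c k v|)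
      fun v => abs_nonneg _
  refine le_trans h1 ?_
  rw [Finset.sum_coe_sort (box R)
    (fun u => |q c k u - q c k (u + (1, 0))| + |q c k u - q c k (u + (0, 1))|),
    Finset.sum_add_distrib]
  have h2 := count_aux R c k (1, 0)
    (({c.1 + k, c.1 - k - 1} : Finset ℤ) ×ˢ Finset.Icc (c.2 - k) (c.2 + k)) (by
      intro u hu
      simp only [dist', Prod.fst_add, Prod.snd_add] at hu
      simp only [Finset.mem_product, Finset.mem_insert, Finset.mem_singleton, Finset.mem_Icc]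
      omega)
  have h3 := count_aux R c k (0, 1)
    (Finset.Icc (c.1 - k) (c.1 + k) ×ˢ ({c.2 + k, c.2 - k - 1} : Finset ℤ)) (by
      intro u hu
      simp only [dist', Prod.fst_add, Prod.snd_add] at hu
      simp only [Finset.mem_product, Finset.mem_insert, Finset.mem_singleton, Finset.mem_Icc]
      omega)
  have h4 : ((({c.1 + k, c.1 - k - 1} : Finset ℤ) ×ˢ
      Finset.Icc (c.2 - k) (c.2 + k)).card : ℝ) ≤ 4 * k + 2 := by
    rw [Finset.card_product, Int.card_Icc]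
    have : ({c.1 + (k : ℤ), c.1 - k - 1} : Finset ℤ).card ≤ 2 := Finset.card_le_two
    have h5 : (c.2 + (k : ℤ) + 1 - (c.2 - k)).toNat = 2 * k + 1 := by omega
    rw [h5]
    have : ({c.1 + (k : ℤ), c.1 - k - 1} : Finset ℤ).card * (2 * k + 1) ≤ 2 * (2 * k + 1) :=
      Nat.mul_le_mul_right _ this
    calc ((({c.1 + (k : ℤ), c.1 - k - 1} : Finset ℤ).card * (2 * k + 1) : ℕ) : ℝ)
        ≤ ((2 * (2 * k + 1) : ℕ) : ℝ) := by exact_mod_cast this
      _ = 4 * k + 2 := by push_cast; ring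
  have h6 : ((Finset.Icc (c.1 - k) (c.1 + k) ×ˢ
      ({c.2 + k, c.2 - k - 1} : Finset ℤ)).card : ℝ) ≤ 4 * k + 2 := by
    rw [Finset.card_product, Int.card_Icc]
    have : ({c.2 + (k : ℤ), c.2 - k - 1} : Finset ℤ).card ≤ 2 := Finset.card_le_two
    have h5 : (c.1 + (k : ℤ) + 1 - (c.1 - k)).toNat = 2 * k + 1 := by omega
    rw [h5]
    have : (2 * k + 1) * ({c.2 + (k : ℤ), c.2 - k - 1} : Finset ℤ).card ≤ (2 * k + 1) * 2 :=
      Nat.mul_le_mul_left _ this
    calc (((2 * k + 1) * ({c.2 + (k : ℤ), c.2 - k - 1} : Finset ℤ).card : ℕ) : ℝ)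
        ≤ (((2 * k + 1) * 2 : ℕ) : ℝ) := by exact_mod_cast this
      _ = 4 * k + 2 := by push_cast; ring
  linarith

theorem one_cut {R : ℕ} {b : ℝ} (hb : 0 < b) {x : ℤ × ℤ} (s : box R → box R → ℝ)
    (hanti : ∀ u v, s v u = -s u v)
    (hdiv : ∀ w : box R, ∑ v : box R, (nn b w v + nn b v w) * s w v =
      (if (w : ℤ × ℤ) = 0 then 1 else 0) - (if (w : ℤ × ℤ) = x then 1 else 0))
    (h0 : (0 : ℤ × ℤ) ∈ box R) (hx : x ∈ box R) (c : ℤ × ℤ) (k : ℕ)
    (hq : |q c k 0 - q c k x| = 1) :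
    1 / (b * (2 * b * (8 * k + 4) + 1)) ≤ ∑ u : box R, ∑ v : box R,
      nn 1 u v * |q c k u - q c k v| * (s u v ^ 2 / (2 + |s u v|)) := by
  have h1 := flow s hanti hdiv (q c k) h0 hx
  have h2 : 1 / b ≤ ∑ u : box R, ∑ v : box R, nn 1 u v * |q c k u - q c k v| * |s u v| := by
    rw [div_le_iff₀ hb]
    refine le_trans (le_of_eq (hq.symm.trans (congrArg abs h1.symm))) ?_
    refine le_trans (Finset.abs_sum_le_sum_abs _ _) ?_
    rw [Finset.sum_mul]
    refine Finset.sum_le_sum fun u _ => ?_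
    refine le_trans (Finset.abs_sum_le_sum_abs _ _) ?_
    rw [Finset.sum_mul]
    refine Finset.sum_le_sum fun v _ => le_of_eq ?_
    rw [nn_mul b, abs_mul, abs_mul, abs_mul, abs_of_pos hb, abs_of_nonneg (nn_one_nonneg _ _)]
    ring
  have h3 := sum_ge (Finset.univ : Finset (box R × box R))
    (fun i => nn 1 i.1 i.2 * |q c k i.1 - q c k i.2|) (fun i => |s i.1 i.2|)
    (fun i => mul_nonneg (nn_one_nonneg _ _) (abs_nonneg _)) (fun i => abs_nonneg _)
    (n := 8 * k + 4) (by positivity) hb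
    (by rw [Fintype.sum_prod_type]; exact count R c k)
    (by rw [Fintype.sum_prod_type]; exact h2)
  rw [Fintype.sum_prod_type] at h3
  simpa only [sq_abs] using h3

theorem disj_aux (a b m : ℕ) (h : a ≤ b + 1) (h' : b ≤ a + 1) :
    ∑ k ∈ Finset.range m, (if (a ≤ k ↔ b ≤ k) then (0 : ℝ) else 1) =
      if a ≠ b ∧ min a b < m then 1 else 0 := by
  rcases lt_trichotomy a b with hab | hab | hab
  · have hb : b = a + 1 := by omega
    subst hb
    have : ∀ k, (if (a ≤ k ↔ a + 1 ≤ k) then (0 : ℝ) else 1) = if k = a then 1 else 0 := by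
      intro k
      by_cases hk : k = a
      · subst hk; simp
      · rw [if_neg hk, if_pos]
        omega
    simp only [this]
    rw [Finset.sum_ite_eq']
    simp
  · subst hab
    simp
  · have hb : a = b + 1 := by omega
    subst hb
    have : ∀ k, (if (b + 1 ≤ k ↔ b ≤ k) then (0 : ℝ) else 1) = if k = b then 1 else 0 := by
      intro k
      by_cases hk : k = b
      · subst hk; simp
      · rw [if_neg hk, if_pos]
        omega
    simp only [this]
    rw [Finset.sum_ite_eq']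
    simp

theorem disj (x : ℤ × ℤ) (m : ℕ) (hm : 2 * m ≤ dist' 0 x) (u v : ℤ × ℤ)
    (huv : v = u + (1, 0) ∨ v = u + (0, 1)) :
    ∑ k ∈ Finset.range m, |q 0 k u - q 0 k v| + ∑ k ∈ Finset.range m, |q x k u - q x k v| ≤ 1 := by
  simp only [abs_q_sub]
  have e1 : ∀ c, dist' c u ≤ dist' c v + 1 ∧ dist' c v ≤ dist' c u + 1 := by
    intro c
    rcases huv with h | h <;> subst h <;> simp only [dist', Prod.fst_add, Prod.snd_add] <;> omega
  rw [disj_aux _ _ m (e1 0).1 (e1 0).2, disj_aux _ _ m (e1 x).1 (e1 x).2]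
  by_cases h1 : dist' 0 u ≠ dist' 0 v ∧ min (dist' 0 u) (dist' 0 v) < m
  · rw [if_pos h1, if_neg]
    · norm_num
    · rintro ⟨h2, h3⟩
      obtain ⟨h4, h5⟩ := h1
      have t1 : dist' 0 x ≤ dist' 0 u + dist' x u := by
        simp only [dist', Prod.fst_zero, Prod.snd_zero]; omega
      have t2 : dist' 0 x ≤ dist' 0 v + dist' x v := by
        simp only [dist', Prod.fst_zero, Prod.snd_zero]; omega
      have := e1 0
      have := e1 x
      omega
  · rw [if_neg h1]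
    split_ifs <;> norm_num

theorem log_step {b : ℝ} (hb : 0 < b) (m : ℕ) :
    1 / (16 * b ^ 2) * Real.log ((16 * b * m + 8 * b + 1) / (8 * b + 1)) ≤
      ∑ k ∈ Finset.range m, 1 / (b * (2 * b * (8 * k + 4) + 1)) := by
  induction m with
  | zero => simp [div_self (show (8 * b + 1 : ℝ) ≠ 0 by positivity)]
  | succ m ih =>
    rw [Finset.sum_range_succ]
    have h1 : 0 < 16 * b * m + 8 * b + 1 := by positivity
    have h2 : (0 : ℝ) < 8 * b + 1 := by positivity
    have h3 : Real.log ((16 * b * ((m + 1 : ℕ) : ℝ) + 8 * b + 1) / (8 * b + 1)) =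
        Real.log ((16 * b * m + 8 * b + 1) / (8 * b + 1)) +
          Real.log (1 + 16 * b / (16 * b * m + 8 * b + 1)) := by
      rw [← Real.log_mul (by positivity) (by positivity)]
      congr 1
      push_cast
      field_simp
      ring
    rw [h3, mul_add]
    refine add_le_add ih ?_
    have h4 : Real.log (1 + 16 * b / (16 * b * m + 8 * b + 1)) ≤
        16 * b / (16 * b * m + 8 * b + 1) := by
      have := Real.log_le_sub_one_of_pos (show 0 < 1 + 16 * b / (16 * b * m + 8 * b + 1) by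
        positivity)
      linarith
    refine le_trans (mul_le_mul_of_nonneg_left h4 (by positivity)) (le_of_eq ?_)
    have h5 : 2 * b * (8 * (m : ℝ) + 4) + 1 = 16 * b * m + 8 * b + 1 := by ring
    rw [h5]
    field_simp

theorem cut_bound {R : ℕ} {b : ℝ} (hb : 0 < b) {x : ℤ × ℤ} (hx : x ≠ 0)
    (hR : 2 * max |x.1| |x.2| ≤ (R : ℤ)) (s : box R → box R → ℝ)
    (hanti : ∀ u v, s v u = -s u v)
    (hdiv : ∀ w : box R, ∑ v : box R, (nn b w v + nn b v w) * s w v =
      (if (w : ℤ × ℤ) = 0 then 1 else 0) - (if (w : ℤ × ℤ) = x then 1 else 0)) :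
    1 / (8 * b ^ 2) * Real.log ((8 * b * ((max |x.1| |x.2| : ℤ) : ℝ) + 1) / (8 * b + 1)) ≤
      ∑ u : box R, ∑ v : box R, nn 1 u v * (s u v ^ 2 / (2 + |s u v|)) := by
  have hbox : ∀ y : ℤ × ℤ, y ∈ box R ↔ (-(R : ℤ) ≤ y.1 ∧ -(R : ℤ) ≤ y.2) ∧ (y.1 ≤ R ∧ y.2 ≤ R) :=
    fun y => by rw [box, Finset.mem_Icc, Prod.le_def, Prod.le_def]
  have h0 : (0 : ℤ × ℤ) ∈ box R := by
    rw [hbox]; simp
  have hR' := hR
  rw [Int.abs_eq_natAbs, Int.abs_eq_natAbs] at hR'
  have hxb : x ∈ box R := by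
    rw [hbox]; omega
  set m : ℕ := dist' 0 x / 2 with hm
  have hm2 : 2 * m ≤ dist' 0 x := by omega
  have hd0 : ((dist' 0 x : ℕ) : ℤ) = max |x.1| |x.2| := by
    rw [Int.abs_eq_natAbs, Int.abs_eq_natAbs]
    simp only [dist', Prod.fst_zero, Prod.snd_zero]; omega
  have hdx : dist' x 0 = dist' 0 x := by
    simp only [dist', Prod.fst_zero, Prod.snd_zero]; omega
  have hdxx : ∀ y : ℤ × ℤ, dist' y y = 0 := by
    intro y; simp [dist']
  have hpos : 0 < dist' 0 x := by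
    rcases Nat.eq_zero_or_pos (dist' 0 x) with h | h
    · exfalso
      apply hx
      simp only [dist', Prod.fst_zero, Prod.snd_zero] at h
      ext <;> simp only [Prod.fst_zero, Prod.snd_zero] <;> omega
    · exact h
  set G : box R → box R → ℝ := fun u v => s u v ^ 2 / (2 + |s u v|) with hG
  have hG0 : ∀ u v, 0 ≤ G u v := fun u v => by
    simp only [hG]; positivity
  have hcut : ∀ c : ℤ × ℤ, (c = 0 ∨ c = x) → ∀ k ∈ Finset.range m,
      1 / (b * (2 * b * (8 * k + 4) + 1)) ≤ ∑ u : box R, ∑ v : box R,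
        nn 1 u v * |q c k u - q c k v| * G u v := by
    intro c hc k hk
    have hk' := Finset.mem_range.1 hk
    refine one_cut hb s hanti hdiv h0 hxb c k ?_
    rw [abs_q_sub, if_neg]
    rcases hc with rfl | rfl
    · rw [hdxx]; omega
    · rw [hdxx, hdx]; omega
  have hsum : ∑ k ∈ Finset.range m, 1 / (b * (2 * b * (8 * (k : ℝ) + 4) + 1)) +
      ∑ k ∈ Finset.range m, 1 / (b * (2 * b * (8 * (k : ℝ) + 4) + 1)) ≤
      ∑ u : box R, ∑ v : box R, nn 1 u v * G u v := by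
    refine le_trans (add_le_add (Finset.sum_le_sum (hcut 0 (Or.inl rfl)))
      (Finset.sum_le_sum (hcut x (Or.inr rfl)))) ?_
    rw [Finset.sum_comm, Finset.sum_comm (s := Finset.range m), ← Finset.sum_add_distrib]
    refine Finset.sum_le_sum fun u _ => ?_
    rw [Finset.sum_comm, Finset.sum_comm (s := Finset.range m), ← Finset.sum_add_distrib]
    refine Finset.sum_le_sum fun v _ => ?_
    rw [← Finset.sum_add_distrib]
    have h1 : ∀ k ∈ Finset.range m, nn 1 u v * |q 0 k u - q 0 k v| * G u v +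
        nn 1 u v * |q x k u - q x k v| * G u v =
        nn 1 u v * G u v * (|q 0 k u - q 0 k v| + |q x k u - q x k v|) := fun k _ => by ring
    rw [Finset.sum_congr rfl h1, ← Finset.mul_sum, Finset.sum_add_distrib]
    by_cases huv : (v : ℤ × ℤ) = (u : ℤ × ℤ) + (1, 0) ∨ (v : ℤ × ℤ) = (u : ℤ × ℤ) + (0, 1)
    · have h2 := disj x m hm2 u v huv
      have h3 : 0 ≤ nn 1 u v * G u v := mul_nonneg (nn_one_nonneg _ _) (hG0 u v)
      nlinarith
    · have h2 : nn 1 u v = 0 := by rw [nn, if_neg huv]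
      rw [h2]; simp
  refine le_trans ?_ hsum
  have h5 := log_step hb m
  have h6 : Real.log ((8 * b * ((max |x.1| |x.2| : ℤ) : ℝ) + 1) / (8 * b + 1)) ≤
      Real.log ((16 * b * m + 8 * b + 1) / (8 * b + 1)) := by
    have h7 : ((max |x.1| |x.2| : ℤ) : ℝ) = ((dist' 0 x : ℕ) : ℝ) := by
      rw [← hd0]; simp
    have h8 : ((dist' 0 x : ℕ) : ℝ) ≤ 2 * (m : ℝ) + 1 := by
      have : dist' 0 x ≤ 2 * m + 1 := by omega
      exact_mod_cast this
    rw [h7]
    apply Real.log_le_log (by positivity)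
    apply div_le_div_of_nonneg_right _ (by positivity)
    nlinarith
  have h9 : 1 / (8 * b ^ 2) * Real.log ((8 * b * ((max |x.1| |x.2| : ℤ) : ℝ) + 1) / (8 * b + 1)) ≤
      1 / (8 * b ^ 2) * Real.log ((16 * b * m + 8 * b + 1) / (8 * b + 1)) :=
    mul_le_mul_of_nonneg_left h6 (by positivity)
  refine le_trans h9 ?_
  have h10 : 1 / (8 * b ^ 2) = 1 / (16 * b ^ 2) + 1 / (16 * b ^ 2) := by
    field_simp
    norm_num
  rw [h10, add_mul]
  exact add_le_add h5 h5

end Vale.Agent.P159.H399
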