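import Vale.Agent.P159.H292.R7
import Vale.Agent.P159.Bdl.B8
import Vale.Agent.P159.H399.Cut

/-!
Growth of the two-point function of the XY model with the inverse temperature: Ward identity with
a source, logarithmic derivative, lower bound by the energy of a unit flow.
-/

open MeasureTheory Filter Topology
open scoped BigOperators

set_option linter.unusedSectionVars false

namespace Vale.Agent.P159.H399

open Vale.Agent.P159

section Abstract

variable {G : Type*} [AddCommGroup G] [TopologicalSpace G] [IsTopologicalAddGroup G]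
  [CompactSpace G] [SecondCountableTopology G] [MeasurableSpace G] [BorelSpace G]
  (μ : Measure G) [μ.IsAddHaarMeasure] [IsProbabilityMeasure μ]
  {κ : Type*} [Fintype κ] (J : κ → ℝ) (χ : κ → Chr G)

/-- Ward identity with a source, integral form -/
theorem ward1_int (A : Chr G) (z : ℝ) (y : κ → ℝ) (X : ℝ → G)
    (hcA : ∀ t, A.c (X t) = Real.cos (t * z)) (hsA : ∀ t, A.s (X t) = Real.sin (t * z))
    (hc : ∀ t e, (χ e).c (X t) = Real.cos (t * y e))
    (hs : ∀ t e, (χ e).s (X t) = Real.sin (t * y e)) :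
    ∫ x, (z * A.c x - A.s x * ∑ e, J e * y e * (χ e).s x) *
        Real.exp (∑ e, J e * (χ e).c x) ∂μ = 0 := by
  have cA := A.cont_c
  have cA' := A.cont_s
  have cc := fun e => (χ e).cont_c
  have cs := fun e => (χ e).cont_s
  set a : ℝ → G → ℝ := fun t x => A.s x * Real.cos (t * z) + A.c x * Real.sin (t * z) with ha
  set B : ℝ → G → ℝ := fun t x =>
    ∑ e, J e * ((χ e).c x * Real.cos (t * y e) - (χ e).s x * Real.sin (t * y e)) with hB
  set a' : ℝ → G → ℝ := fun t x => A.s x * (-Real.sin (t * z) * z) +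
    A.c x * (Real.cos (t * z) * z) with ha'
  set B' : ℝ → G → ℝ := fun t x =>
    ∑ e, J e * ((χ e).c x * (-Real.sin (t * y e) * y e) -
      (χ e).s x * (Real.cos (t * y e) * y e)) with hB'
  have hda : ∀ t x, HasDerivAt (fun t => a t x) (a' t x) t := by
    intro t x
    simp only [ha, ha']
    have h0 : HasDerivAt (fun t : ℝ => t * z) z t := by
      simpa using (hasDerivAt_id t).mul_const z
    exact (h0.cos.const_mul _).add (h0.sin.const_mul _)
  have hdB : ∀ t x, HasDerivAt (fun t => B t x) (B' t x) t := by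
    intro t x
    simp only [hB, hB']
    refine HasDerivAt.fun_sum fun e _ => ?_
    have h0 : HasDerivAt (fun t : ℝ => t * y e) (y e) t := by
      simpa using (hasDerivAt_id t).mul_const (y e)
    exact ((h0.cos.const_mul _).sub (h0.sin.const_mul _)).const_mul _
  set g : ℝ → G → ℝ := fun t x => a t x * Real.exp (B t x) with hg
  set g' : ℝ → G → ℝ := fun t x => a' t x * Real.exp (B t x) +
    a t x * (Real.exp (B t x) * B' t x) with hg'
  have hdg : ∀ t x, HasDerivAt (fun t => g t x) (g' t x) t := by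
    intro t x
    exact (hda t x).mul (hdB t x).exp
  have hcg' : Continuous (fun p : ℝ × G => g' p.1 p.2) := by
    simp only [hg', ha, hB, ha', hB']
    fun_prop
  have hcg : ∀ t, Continuous (g t) := by
    intro t
    simp only [hg, ha, hB]
    fun_prop
  obtain ⟨C, hC⟩ := ((isCompact_Icc (a := (-1 : ℝ)) (b := 1)).prod
    (isCompact_univ (X := G))).exists_bound_of_continuousOn (f := fun p : ℝ × G => g' p.1 p.2)
    hcg'.continuousOn
  have hder := (hasDerivAt_integral_of_dominated_loc_of_deriv_le (μ := μ) (F := g) (F' := g')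
    (x₀ := 0) (s := Set.Icc (-1) 1) (bound := fun _ => C)
    (Icc_mem_nhds (by norm_num) (by norm_num))
    (Eventually.of_forall fun t => (hcg t).aestronglyMeasurable)
    (cint (hcg 0))
    ((hcg'.comp (continuous_const.prodMk continuous_id)).aestronglyMeasurable)
    (Eventually.of_forall fun x t ht => hC (t, x) ⟨ht, Set.mem_univ x⟩)
    (integrable_const C)
    (Eventually.of_forall fun x t _ => hdg t x)).2
  have hinv : ∀ t, ∫ x, g t x ∂μ = ∫ x, g 0 x ∂μ := by
    intro t
    rw [← integral_add_right_eq_self (μ := μ) (fun x => g 0 x) (X t)]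
    congr 1
    funext x
    simp only [hg, ha, hB, (χ _).s_add, A.s_add, hcA, hsA, hc, hs, zero_mul, Real.cos_zero,
      mul_one, (χ _).c_add, Real.sin_zero, mul_zero, add_zero, sub_zero]
  have hconst : HasDerivAt (fun t => ∫ x, g t x ∂μ) 0 0 := by
    have : (fun t => ∫ x, g t x ∂μ) = fun _ => ∫ x, g 0 x ∂μ := funext hinv
    rw [this]
    exact hasDerivAt_const _ _
  have hz := hder.unique hconst
  rw [← hz]
  congr 1
  funext x
  simp only [hg', ha, hB, ha', hB', zero_mul, Real.cos_zero, Real.sin_zero, mul_one, mul_zero,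
    add_zero, sub_zero, neg_zero, zero_add, one_mul, zero_sub]
  have e2 : ∑ e, J e * -((χ e).s x * y e) = -∑ e, J e * y e * (χ e).s x := by
    rw [← Finset.sum_neg_distrib]
    exact Finset.sum_congr rfl fun e _ => by ring
  rw [e2]
  ring

/-- the sum of integrals against the weight -/
theorem int_sum {A : G → ℝ} (hA : Continuous A) (w : κ → ℝ) (f : κ → G → ℝ)
    (hf : ∀ e, Continuous (f e)) :
    ∫ x, (A x * ∑ e, w e * f e x) * Real.exp (∑ e, J e * (χ e).c x) ∂μ =
      (∑ e, w e * gibbs μ J χ (fun x => f e x * A x)) *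
        ∫ x, Real.exp (∑ e, J e * (χ e).c x) ∂μ := by
  have h1 : ∀ x, (A x * ∑ e, w e * f e x) * Real.exp (∑ e, J e * (χ e).c x) =
      ∑ e, w e * ((f e x * A x) * Real.exp (∑ e, J e * (χ e).c x)) := by
    intro x
    rw [Finset.mul_sum, Finset.sum_mul]
    exact Finset.sum_congr rfl fun e _ => by ring
  simp_rw [h1]
  rw [integral_finsetSum]
  · rw [Finset.sum_mul]
    refine Finset.sum_congr rfl fun e _ => ?_
    rw [integral_const_mul, mul_assoc, H292.gibbs_mul]
  · intro e _
    have c1 : Continuous fun x => w e * (f e x * A x * Real.exp (∑ e, J e * (χ e).c x)) :=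
      continuous_const.mul (((hf e).mul hA).mul (cont_weight J χ))
    exact cint c1

/-- Ward identity with a source -/
theorem ward1 (A : Chr G) (z : ℝ) (y : κ → ℝ) (X : ℝ → G)
    (hcA : ∀ t, A.c (X t) = Real.cos (t * z)) (hsA : ∀ t, A.s (X t) = Real.sin (t * z))
    (hc : ∀ t e, (χ e).c (X t) = Real.cos (t * y e))
    (hs : ∀ t e, (χ e).s (X t) = Real.sin (t * y e)) :
    ∑ e, J e * y e * gibbs μ J χ (fun x => (χ e).s x * A.s x) = z * gibbs μ J χ A.c := by
  have h := ward1_int μ J χ A z y X hcA hsA hc hs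
  have hZ := weight_pos μ J χ
  have e : ∀ x, (z * A.c x - A.s x * ∑ e, J e * y e * (χ e).s x) *
      Real.exp (∑ e, J e * (χ e).c x) = z * (A.c x * Real.exp (∑ e, J e * (χ e).c x)) -
      (A.s x * ∑ e, J e * y e * (χ e).s x) * Real.exp (∑ e, J e * (χ e).c x) :=
    fun x => by ring
  simp_rw [e] at h
  have c1 : Continuous fun x => z * (A.c x * Real.exp (∑ e, J e * (χ e).c x)) :=
    continuous_const.mul (A.cont_c.mul (cont_weight J χ))
  have c2 : Continuous fun x => (A.s x * ∑ e, J e * y e * (χ e).s x) *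
      Real.exp (∑ e, J e * (χ e).c x) :=
    (A.cont_s.mul (continuous_finsetSum _ fun e _ => continuous_const.mul (χ e).cont_s)).mul
      (cont_weight J χ)
  rw [integral_sub (cint c1) (cint c2), integral_const_mul, ← H292.gibbs_mul,
    int_sum μ J χ A.cont_s (fun e => J e * y e) (fun e => (χ e).s) fun e => (χ e).cont_s] at h
  have h3 : (z * gibbs μ J χ A.c - ∑ e, J e * y e * gibbs μ J χ (fun x => (χ e).s x * A.s x)) *
      ∫ x, Real.exp (∑ e, J e * (χ e).c x) ∂μ = 0 := by linarith
  rcases mul_eq_zero.1 h3 with h4 | h4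
  · linarith
  · exact absurd h4 hZ.ne'

theorem cov_nonneg (h2 : ∀ g : G, ∃ h : G, h + h = g) (hJ : ∀ k, 0 ≤ J k) (e : κ) (A : Chr G) :
    0 ≤ (gibbs μ J χ fun x => (χ e).c x * A.c x) - gibbs μ J χ (χ e).c * gibbs μ J χ A.c := by
  have hss : Continuous fun x => (χ e).s x * A.s x := (χ e).cont_s.mul A.cont_s
  have hZ := weight_pos μ J χ
  have b1 := H292.four μ J χ h2 (f := (χ e).c) (g := A.c) (P := fun x => (χ e).s x * A.s x)
    (Q := fun x => (χ e).s x * A.s x) (χ e).cont_c A.cont_c hss hss (-1) (by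
      intro x y
      rw [sub_eq_add_neg x y]
      simp only [(χ e).c_add, (χ e).c_neg, (χ e).s_neg, A.c_add, A.c_neg, A.s_neg]
      ring)
  have b2 := H292.kd_nonneg μ J χ hJ hss
  by_contra hcon
  push Not at hcon
  have h3 : 0 < (∫ x, Real.exp (∑ e, J e * (χ e).c x) ∂μ) ^ 2 := by positivity
  nlinarith

theorem gibbs_c_le (A : Chr G) : gibbs μ J χ A.c ≤ 1 := by
  rw [← gibbs_const μ J χ 1]
  exact gibbs_mono μ J χ A.cont_c continuous_const fun x => (abs_le.1 (A.abs_c_le x)).2

/-- the bond quantities -/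
theorem bond_ge (h2 : ∀ g : G, ∃ h : G, h + h = g) (hJ : ∀ k, 0 ≤ J k) (e : κ) (A : Chr G)
    (hA : 0 < gibbs μ J χ A.c) :
    (gibbs μ J χ (fun x => (χ e).s x * A.s x) / gibbs μ J χ A.c) ^ 2 /
        (2 + |gibbs μ J χ (fun x => (χ e).s x * A.s x) / gibbs μ J χ A.c|) ≤
      (gibbs μ J χ fun x => (χ e).c x * A.c x) / gibbs μ J χ A.c - gibbs μ J χ (χ e).c := by
  have h1 := H292.r7 μ J χ h2 hJ e A
  have h3 := cov_nonneg μ J χ h2 hJ e A
  have h4 := gibbs_c_le μ J χ (χ e)
  set C := gibbs μ J χ A.c with hC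
  set k := gibbs μ J χ (χ e).c with hk
  set g := gibbs μ J χ fun x => (χ e).c x * A.c x with hg
  set S := gibbs μ J χ fun x => (χ e).s x * A.s x with hS
  have hx0 : 0 ≤ g / C - k := by
    rw [sub_nonneg, le_div_iff₀ hA]
    linarith
  have hsq : (S / C) ^ 2 ≤ (g / C - k) * ((g / C - k) + 2) := by
    have h5 : (S / C) ^ 2 ≤ (g / C - k) * (g / C + k) := by
      have e1 : (g / C - k) * (g / C + k) = ((g - k * C) * (g + k * C)) / C ^ 2 := by
        field_simp
      rw [e1, div_pow]
      exact div_le_div_of_nonneg_right h1 (by positivity)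
    refine h5.trans (mul_le_mul_of_nonneg_left ?_ hx0)
    linarith
  set y := g / C - k
  set s := S / C
  by_contra hcon
  push Not at hcon
  have hs0 : 0 < 2 + |s| := by positivity
  rw [lt_div_iff₀ hs0] at hcon
  have hsa : s ^ 2 = |s| ^ 2 := (sq_abs s).symm
  rw [hsa] at hcon hsq
  set r := |s|
  have hr : 0 ≤ r := abs_nonneg s
  -- `y (2 + r) < r²` and `r² ≤ y (y + 2)` are contradictory
  have h6 : y < r := by
    by_contra h7
    push Not at h7
    nlinarith
  nlinarith

end Abstract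

section Deriv

variable {X : Type*} [TopologicalSpace X] [CompactSpace X] [MeasurableSpace X]
    [BorelSpace X] [SecondCountableTopology X] (μ : Measure X) [IsProbabilityMeasure μ]

theorem hasDerivAt_int {f h : X → ℝ} (hf : Continuous f) (hh : Continuous h) (b : ℝ) :
    HasDerivAt (fun s : ℝ => ∫ x, f x * Real.exp (s * h x) ∂μ)
      (∫ x, (f x * h x) * Real.exp (b * h x) ∂μ) b := by
  obtain ⟨M, hM0, hM⟩ := exists_bound hh
  obtain ⟨L, hL0, hL⟩ := exists_bound (hf.mul hh)
  have ce : ∀ s : ℝ, Continuous fun x => Real.exp (s * h x) := fun s =>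
    Real.continuous_exp.comp (continuous_const.mul hh)
  refine (hasDerivAt_integral_of_dominated_loc_of_deriv_le
    (F := fun s x => f x * Real.exp (s * h x)) (F' := fun s x => (f x * h x) * Real.exp (s * h x))
    (bound := fun _ => L * Real.exp ((|b| + 1) * M)) (x₀ := b) (s := Metric.ball b 1)
    (Metric.ball_mem_nhds b one_pos) ?_ ?_ ?_ ?_ ?_ ?_).2
  · exact Eventually.of_forall fun s => (hf.mul (ce s)).aestronglyMeasurable
  · exact cint (hf.mul (ce b))
  · exact ((hf.mul hh).mul (ce b)).aestronglyMeasurable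
  · refine Eventually.of_forall fun x s hs => ?_
    have h1 : ‖f x * h x‖ ≤ L := hL x
    rw [norm_mul, Real.norm_eq_abs (Real.exp _), abs_of_pos (Real.exp_pos _)]
    refine mul_le_mul h1 ?_ (Real.exp_pos _).le hL0
    rw [Real.exp_le_exp]
    have h2 : |s| ≤ |b| + 1 := by
      have h3 : |s - b| < 1 := by rwa [Metric.mem_ball, Real.dist_eq] at hs
      have h4 : |s| ≤ |s - b| + |b| := by
        have := abs_add_le (s - b) b
        rwa [sub_add_cancel] at this
      linarith
    calc s * h x ≤ |s * h x| := le_abs_self _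
      _ = |s| * |h x| := abs_mul _ _
      _ ≤ (|b| + 1) * M := mul_le_mul h2 (hM x) (abs_nonneg _) (by positivity)
  · exact integrable_const _
  · refine Eventually.of_forall fun x s _ => ?_
    have h1 : HasDerivAt (fun s : ℝ => s * h x) (h x) s := by
      simpa using (hasDerivAt_id s).mul_const (h x)
    have h2 := h1.exp.const_mul (f x)
    rwa [mul_comm (Real.exp _) (h x), ← mul_assoc] at h2

end Deriv

section Log

variable {G : Type*} [AddCommGroup G] [TopologicalSpace G] [IsTopologicalAddGroup G]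
  [CompactSpace G] [SecondCountableTopology G] [MeasurableSpace G] [BorelSpace G]
  (μ : Measure G) [μ.IsAddHaarMeasure] [IsProbabilityMeasure μ]
  {κ : Type*} [Fintype κ] (a : κ → ℝ) (χ : κ → Chr G)

theorem log_deriv (A : Chr G) (b : ℝ) (hA : 0 < gibbs μ (fun e => b * a e) χ A.c) :
    HasDerivAt (fun s : ℝ => Real.log (gibbs μ (fun e => s * a e) χ A.c))
      (∑ e, a e * ((gibbs μ (fun e => b * a e) χ fun x => (χ e).c x * A.c x) /
        gibbs μ (fun e => b * a e) χ A.c - gibbs μ (fun e => b * a e) χ (χ e).c)) b := by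
  set H : G → ℝ := fun x => ∑ e, a e * (χ e).c x with hH
  have cH : Continuous H := continuous_finsetSum _ fun e _ => continuous_const.mul (χ e).cont_c
  have hw : ∀ (s : ℝ) (x : G), ∑ e, s * a e * (χ e).c x = s * H x := by
    intro s x
    rw [hH, Finset.mul_sum]
    exact Finset.sum_congr rfl fun e _ => by ring
  have hN := hasDerivAt_int μ A.cont_c cH b
  have hZ := hasDerivAt_int μ (continuous_const (y := (1 : ℝ))) cH b
  have hgs : ∀ s : ℝ, gibbs μ (fun e => s * a e) χ A.c =
      (∫ x, A.c x * Real.exp (s * H x) ∂μ) / ∫ x, 1 * Real.exp (s * H x) ∂μ := by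
    intro s
    unfold gibbs
    simp_rw [hw, one_mul]
  have hZp : 0 < ∫ x, 1 * Real.exp (b * H x) ∂μ := by
    simp_rw [one_mul]
    exact integral_exp_pos (cint (Real.continuous_exp.comp (continuous_const.mul cH)))
  have hq := hN.div hZ hZp.ne'
  have hfun : (fun s : ℝ => gibbs μ (fun e => s * a e) χ A.c) =
      fun s => (∫ x, A.c x * Real.exp (s * H x) ∂μ) / ∫ x, 1 * Real.exp (s * H x) ∂μ :=
    funext hgs
  have hA' := hA.ne'
  rw [hgs b] at hA'
  have hl : HasDerivAt (fun s : ℝ => Real.log ((∫ x, A.c x * Real.exp (s * H x) ∂μ) /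
      ∫ x, 1 * Real.exp (s * H x) ∂μ)) _ b := HasDerivAt.log hq hA'
  have hlog : (fun s : ℝ => Real.log (gibbs μ (fun e => s * a e) χ A.c)) = fun s =>
      Real.log ((∫ x, A.c x * Real.exp (s * H x) ∂μ) / ∫ x, 1 * Real.exp (s * H x) ∂μ) := by
    funext s
    rw [hgs s]
  rw [hlog]
  refine hl.congr_deriv ?_
  have e1 : ∫ x, A.c x * H x * Real.exp (b * H x) ∂μ =
      (∑ e, a e * gibbs μ (fun e => b * a e) χ (fun x => (χ e).c x * A.c x)) *
        ∫ x, 1 * Real.exp (b * H x) ∂μ := by
    have := int_sum μ (fun e => b * a e) χ A.cont_c a (fun e => (χ e).c) fun e => (χ e).cont_c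
    simp_rw [hw] at this
    simp_rw [one_mul]
    exact this
  have e2 : ∫ x, 1 * H x * Real.exp (b * H x) ∂μ =
      (∑ e, a e * gibbs μ (fun e => b * a e) χ (χ e).c) *
        ∫ x, 1 * Real.exp (b * H x) ∂μ := by
    have := int_sum μ (fun e => b * a e) χ (continuous_const (y := (1 : ℝ))) a
      (fun e => (χ e).c) fun e => (χ e).cont_c
    simp_rw [hw, mul_one] at this
    simp_rw [one_mul] at this ⊢
    exact this
  have e3 : ∫ x, A.c x * Real.exp (b * H x) ∂μ = gibbs μ (fun e => b * a e) χ A.c *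
      ∫ x, 1 * Real.exp (b * H x) ∂μ := by
    rw [hgs b, div_mul_cancel₀ _ hZp.ne']
  rw [e1, e2, e3]
  set Z := ∫ x, 1 * Real.exp (b * H x) ∂μ
  set C := gibbs μ (fun e => b * a e) χ A.c
  have e4 : ∑ e, a e * ((gibbs μ (fun e => b * a e) χ fun x => (χ e).c x * A.c x) / C -
      gibbs μ (fun e => b * a e) χ (χ e).c) =
      (∑ e, a e * gibbs μ (fun e => b * a e) χ (fun x => (χ e).c x * A.c x)) / C -
        ∑ e, a e * gibbs μ (fun e => b * a e) χ (χ e).c := by
    rw [Finset.sum_div, ← Finset.sum_sub_distrib]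
    exact Finset.sum_congr rfl fun e _ => by ring
  rw [e4]
  field_simp

end Log

section Box

variable {V : Type*} [Fintype V] [DecidableEq V]

/-- the character `θ u - θ v` -/
noncomputable def ch (u v : V) : Chr (V → T) where
  c θ := XY.ct (θ u - θ v)
  s θ := XY.st (θ u - θ v)
  cont_c := by fun_prop
  cont_s := by fun_prop
  c_add θ η := by
    have : (θ + η) u - (θ + η) v = (θ u - θ v) + (η u - η v) := by
      simp only [Pi.add_apply]; abel
    rw [this, XY.ct_add]
  s_add θ η := by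
    have : (θ + η) u - (θ + η) v = (θ u - θ v) + (η u - η v) := by
      simp only [Pi.add_apply]; abel
    rw [this, XY.st_add]
  norm_sq θ := XY.ct_sq_add_st_sq _

theorem ch_anti (u v : V) (θ : V → T) : (ch v u).s θ = -(ch u v).s θ := by
  show XY.st (θ v - θ u) = -XY.st (θ u - θ v)
  rw [← XY.st_neg, neg_sub]

/-- indicator of a site -/
noncomputable def dl (w u : V) : ℝ := if u = w then 1 else 0

/-- rotation of one spin -/
noncomputable def rot (w : V) (t : ℝ) : V → T := fun z => if z = w then (t : T) else 0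

theorem rot_sub (w u v : V) (t : ℝ) :
    rot w t u - rot w t v = ((t * (dl w u - dl w v) : ℝ) : T) := by
  unfold rot dl
  split_ifs <;> simp

theorem ch_c_rot (w u v : V) (t : ℝ) :
    (ch u v).c (rot w t) = Real.cos (t * (dl w u - dl w v)) := by
  show XY.ct (rot w t u - rot w t v) = _
  rw [rot_sub, XY.ct_coe]

theorem ch_s_rot (w u v : V) (t : ℝ) :
    (ch u v).s (rot w t) = Real.sin (t * (dl w u - dl w v)) := by
  show XY.st (rot w t u - rot w t v) = _
  rw [rot_sub, XY.st_coe]

/-- expectation with couplings `b * a` -/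
noncomputable def gb (a : V → V → ℝ) (b : ℝ) (f : (V → T) → ℝ) : ℝ :=
  gibbs (XY.haarV V) (fun e : V × V => b * a e.1 e.2) (fun e => ch e.1 e.2) f

theorem sum_dl_left (w : V) (g : V → V → ℝ) : ∑ u, ∑ v, dl w u * g u v = ∑ v, g w v := by
  rw [Finset.sum_eq_single w]
  · simp [dl]
  · intro u _ hu
    simp [dl, hu]
  · intro h
    exact absurd (Finset.mem_univ w) h

theorem sum_dl_right (w : V) (g : V → V → ℝ) : ∑ u, ∑ v, dl w v * g u v = ∑ u, g u w := by
  refine Finset.sum_congr rfl fun u _ => ?_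
  rw [Finset.sum_eq_single w]
  · simp [dl]
  · intro v _ hv
    simp [dl, hv]
  · intro h
    exact absurd (Finset.mem_univ w) h

theorem gb_anti (a : V → V → ℝ) (b : ℝ) (o p u v : V) :
    gb a b (fun θ => (ch v u).s θ * (ch o p).s θ) =
      -gb a b (fun θ => (ch u v).s θ * (ch o p).s θ) := by
  have h : (fun θ : V → T => (ch v u).s θ * (ch o p).s θ) =
      fun θ => (-1) * ((ch u v).s θ * (ch o p).s θ) := by
    funext θ
    rw [ch_anti u v]
    ring
  unfold gb
  rw [h, gibbs_const_mul]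
  ring

/-- Ward identity at the site `w` -/
theorem ward_site (a : V → V → ℝ) (b : ℝ) (o p w : V) :
    ∑ v, (b * a w v + b * a v w) * gb a b (fun θ => (ch w v).s θ * (ch o p).s θ) =
      (dl w o - dl w p) * gb a b (ch o p).c := by
  have h := ward1 (XY.haarV V) (fun e : V × V => b * a e.1 e.2) (fun e => ch e.1 e.2) (ch o p)
    (dl w o - dl w p) (fun e => dl w e.1 - dl w e.2) (rot w) (ch_c_rot w o p) (ch_s_rot w o p)
    (fun t e => ch_c_rot w e.1 e.2 t) (fun t e => ch_s_rot w e.1 e.2 t)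
  rw [Fintype.sum_prod_type] at h
  unfold gb
  rw [← h]
  have e1 : ∑ u, ∑ v, b * a u v * (dl w u - dl w v) *
      gb a b (fun θ => (ch u v).s θ * (ch o p).s θ) =
      (∑ u, ∑ v, dl w u * (b * a u v * gb a b (fun θ => (ch u v).s θ * (ch o p).s θ))) -
        ∑ u, ∑ v, dl w v * (b * a u v * gb a b (fun θ => (ch u v).s θ * (ch o p).s θ)) := by
    rw [← Finset.sum_sub_distrib]
    refine Finset.sum_congr rfl fun u _ => ?_
    rw [← Finset.sum_sub_distrib]
    refine Finset.sum_congr rfl fun v _ => ?_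
    ring
  rw [sum_dl_left, sum_dl_right, ← Finset.sum_sub_distrib] at e1
  refine Eq.trans ?_ e1.symm
  refine Finset.sum_congr rfl fun v _ => ?_
  rw [gb_anti a b o p w v]
  unfold gb
  ring

end Box

section BoxR

/-- the inequality for the logarithmic derivative in the box -/
theorem deriv_ge {R : ℕ} {b : ℝ} (hb : 0 < b) {x : ℤ × ℤ} (hx : x ≠ 0)
    (hR : 2 * max |x.1| |x.2| ≤ (R : ℤ)) (h0 : (0 : ℤ × ℤ) ∈ box R) (hxb : x ∈ box R)
    (hA : 0 < gb (fun u v : box R => nn 1 u v) b (ch ⟨0, h0⟩ ⟨x, hxb⟩).c) :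
    1 / (8 * b ^ 2) * Real.log ((8 * b * ((max |x.1| |x.2| : ℤ) : ℝ) + 1) / (8 * b + 1)) ≤
      ∑ e : box R × box R, nn 1 e.1 e.2 *
        ((gb (fun u v : box R => nn 1 u v) b fun θ => (ch e.1 e.2).c θ *
          (ch ⟨0, h0⟩ ⟨x, hxb⟩).c θ) / gb (fun u v : box R => nn 1 u v) b
            (ch ⟨0, h0⟩ ⟨x, hxb⟩).c - gb (fun u v : box R => nn 1 u v) b (ch e.1 e.2).c) := by
  set a : box R → box R → ℝ := fun u v => nn 1 u v with ha
  set o : box R := ⟨0, h0⟩ with ho
  set p : box R := ⟨x, hxb⟩ with hp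
  set C := gb a b (ch o p).c with hC
  set s : box R → box R → ℝ := fun u v =>
    gb a b (fun θ => (ch u v).s θ * (ch o p).s θ) / C with hs
  have hanti : ∀ u v, s v u = -s u v := by
    intro u v
    simp only [hs]
    rw [gb_anti a b o p u v, neg_div]
  have hdiv : ∀ w : box R, ∑ v : box R, (nn b w v + nn b v w) * s w v =
      (if (w : ℤ × ℤ) = 0 then 1 else 0) - (if (w : ℤ × ℤ) = x then 1 else 0) := by
    intro w
    have h := ward_site a b o p w
    have h1 : ∑ v : box R, (nn b w v + nn b v w) * s w v =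
        (∑ v : box R, (b * a w v + b * a v w) *
          gb a b (fun θ => (ch w v).s θ * (ch o p).s θ)) / C := by
      rw [Finset.sum_div]
      refine Finset.sum_congr rfl fun v _ => ?_
      rw [nn_mul b w v, nn_mul b v w]
      simp only [hs, ha]
      ring
    rw [h1, h, mul_div_assoc, div_self hA.ne', mul_one]
    have e1 : ∀ y : box R, dl w y = if (w : ℤ × ℤ) = y then 1 else 0 := by
      intro y
      unfold dl
      by_cases hy : y = w
      · rw [if_pos hy, if_pos (congrArg Subtype.val hy.symm)]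
      · rw [if_neg hy, if_neg fun h => hy (Subtype.ext h.symm)]
    rw [e1, e1]
  refine (cut_bound hb hx hR s hanti hdiv).trans ?_
  rw [Fintype.sum_prod_type]
  refine Finset.sum_le_sum fun u _ => Finset.sum_le_sum fun v _ => ?_
  refine mul_le_mul_of_nonneg_left ?_ (nn_one_nonneg _ _)
  exact bond_ge (XY.haarV (box R)) (fun e : box R × box R => b * a e.1 e.2)
    (fun e => ch e.1 e.2) XY.hdivV (fun e => mul_nonneg hb.le (nn_one_nonneg _ _)) (u, v)
    (ch o p) hA

theorem corr_gb (R : ℕ) (b : ℝ) {x : ℤ × ℤ} (h0 : (0 : ℤ × ℤ) ∈ box R) (hxb : x ∈ box R) :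
    corr R b x = gb (fun u v : box R => nn 1 u v) b (ch ⟨0, h0⟩ ⟨x, hxb⟩).c := by
  have h : ∀ θ : box R → T, boxEnergy R b θ =
      ∑ e : box R × box R, b * nn 1 e.1 e.2 * (ch e.1 e.2).c θ := by
    intro θ
    unfold boxEnergy
    rw [Fintype.sum_prod_type]
    refine Finset.sum_congr rfl fun u _ => Finset.sum_congr rfl fun v _ => ?_
    rw [nn_mul b u v]
    rfl
  unfold corr expect gb gibbs
  simp_rw [h]
  have e0 : ∀ θ : box R → T, ext θ 0 = θ ⟨0, h0⟩ := fun θ => by
    unfold ext; rw [dif_pos h0]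
  have e1 : ∀ θ : box R → T, ext θ x = θ ⟨x, hxb⟩ := fun θ => by
    unfold ext; rw [dif_pos hxb]
  simp_rw [e0, e1]
  rfl

/-- growth in the box -/
theorem box_growth {R : ℕ} {b b' : ℝ} (hb : 0 < b) (hbb : b ≤ b') {x : ℤ × ℤ} (hx : x ≠ 0)
    (hR : 2 * max |x.1| |x.2| ≤ (R : ℤ)) :
    corr R b x * ((8 * b * ((max |x.1| |x.2| : ℤ) : ℝ) + 1) / (8 * b + 1)) ^
      ((1 / b - 1 / b') / 8) ≤ corr R b' x := by
  have h0 : (0 : ℤ × ℤ) ∈ box R := XY.zero_mem_box R
  have hxb : x ∈ box R := by
    rw [XY.mem_box]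
    rw [Int.abs_eq_natAbs, Int.abs_eq_natAbs] at hR
    omega
  have hmono : ∀ s, b ≤ s → corr R b x ≤ corr R s x := by
    intro s hs
    rw [XY.corr_box_eq R b hxb, XY.corr_box_eq R s hxb]
    exact XY.KS_mono_b _ hb.le hs _ _
  have hnn : 0 ≤ corr R b x := by
    rw [XY.corr_box_eq R b hxb]
    exact XY.KS_nonneg _ hb.le _ _
  rcases hnn.eq_or_lt with hz | hpos
  · rw [← hz, zero_mul]
    exact hz.le.trans (hmono b' hbb)
  have hb' : 0 < b' := hb.trans_le hbb
  have hm1 : (1 : ℝ) ≤ ((max |x.1| |x.2| : ℤ) : ℝ) := by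
    have : 1 ≤ max |x.1| |x.2| := by
      rw [Int.abs_eq_natAbs, Int.abs_eq_natAbs]
      by_contra hcon
      apply hx
      ext <;> simp only [Prod.fst_zero, Prod.snd_zero] <;> omega
    exact_mod_cast this
  set m : ℝ := ((max |x.1| |x.2| : ℤ) : ℝ) with hm
  set L : ℝ := Real.log ((8 * b * m + 1) / (8 * b + 1)) with hL
  have hLs : ∀ s, b ≤ s → L ≤ Real.log ((8 * s * m + 1) / (8 * s + 1)) := by
    intro s hs
    have hs0 : 0 < s := hb.trans_le hs
    apply Real.log_le_log (by positivity)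
    rw [div_le_div_iff₀ (by positivity) (by positivity)]
    nlinarith
  have hC : ∀ s, b ≤ s → 0 < gb (fun u v : box R => nn 1 u v) s (ch ⟨0, h0⟩ ⟨x, hxb⟩).c := by
    intro s hs
    rw [← corr_gb R s h0 hxb]
    exact hpos.trans_le (hmono s hs)
  set F : ℝ → ℝ := fun s =>
    Real.log (gb (fun u v : box R => nn 1 u v) s (ch ⟨0, h0⟩ ⟨x, hxb⟩).c) + L / 8 * s⁻¹ with hF
  have hder : ∀ s, b ≤ s → ∃ D, 0 ≤ D ∧ HasDerivAt F D s := by
    intro s hs
    have hs0 : 0 < s := hb.trans_le hs
    have h1 := log_deriv (XY.haarV (box R)) (fun e : box R × box R => nn 1 e.1 e.2)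
      (fun e => ch e.1 e.2) (ch ⟨0, h0⟩ ⟨x, hxb⟩) s (hC s hs)
    have h2 := (hasDerivAt_inv hs0.ne').const_mul (L / 8)
    refine ⟨_, ?_, h1.add h2⟩
    have h3 := deriv_ge hs0 hx hR h0 hxb (hC s hs)
    have h4 : 1 / (8 * s ^ 2) * L ≤
        1 / (8 * s ^ 2) * Real.log ((8 * s * m + 1) / (8 * s + 1)) :=
      mul_le_mul_of_nonneg_left (hLs s hs) (by positivity)
    have h5 : L / 8 * -(s ^ 2)⁻¹ = -(1 / (8 * s ^ 2) * L) := by
      field_simp
    have h6 := h4.trans h3
    rw [h5]
    have h7 : ∀ A B : ℝ, B ≤ A → 0 ≤ A + -B := fun A B h => by linarith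
    exact h7 _ _ h6
  have hmon : MonotoneOn F (Set.Icc b b') := by
    refine monotoneOn_of_deriv_nonneg (convex_Icc b b') ?_ ?_ ?_
    · intro s hs
      obtain ⟨D, -, hD⟩ := hder s hs.1
      exact hD.continuousAt.continuousWithinAt
    · intro s hs
      rw [interior_Icc] at hs
      obtain ⟨D, -, hD⟩ := hder s hs.1.le
      exact hD.differentiableAt.differentiableWithinAt
    · intro s hs
      rw [interior_Icc] at hs
      obtain ⟨D, hD0, hD⟩ := hder s hs.1.le
      rw [hD.deriv]
      exact hD0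
  have hfin := hmon (Set.left_mem_Icc.2 hbb) (Set.right_mem_Icc.2 hbb) hbb
  simp only [hF] at hfin
  rw [← corr_gb R b h0 hxb, ← corr_gb R b' h0 hxb] at hfin
  have hpos' : 0 < corr R b' x := hpos.trans_le (hmono b' hbb)
  have hr : 0 < (8 * b * m + 1) / (8 * b + 1) := by positivity
  rw [Real.rpow_def_of_pos hr, ← hL]
  have h8 : corr R b x = Real.exp (Real.log (corr R b x)) := (Real.exp_log hpos).symm
  have h9 : corr R b' x = Real.exp (Real.log (corr R b' x)) := (Real.exp_log hpos').symm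
  rw [h8, h9, ← Real.exp_add, Real.exp_le_exp]
  have h10 : L * ((1 / b - 1 / b') / 8) = L / 8 * b⁻¹ - L / 8 * b'⁻¹ := by
    rw [one_div, one_div]; ring
  rw [h10]
  linarith

/-- **growth of the correlations with the inverse temperature** -/
theorem growth (b b' : ℝ) (hb : 0 < b) (hbb : b ≤ b') (x : ℤ × ℤ) (hx : x ≠ 0) :
    corrInf b x * ((8 * b * ((max |x.1| |x.2| : ℤ) : ℝ) + 1) / (8 * b + 1)) ^
      ((1 / b - 1 / b') / 8) ≤ corrInf b' x := by
  rw [XY.corrInf_eq hb.le, XY.corrInf_eq (hb.le.trans hbb)]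
  refine le_of_tendsto_of_tendsto ((XY.tendsto_corr hb.le x).mul_const _)
    (XY.tendsto_corr (hb.le.trans hbb) x) ?_
  filter_upwards [eventually_ge_atTop (2 * (max |x.1| |x.2|)).toNat] with R hR
  exact box_growth hb hbb hx (by omega)

end BoxR

end Vale.Agent.P159.H399
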