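import Vale.Agent.P159.Bdl.B8

/-!
Messager-Miracle-Sole inequalities on the square lattice, from the reflection inequality for
finite systems.
-/

open MeasureTheory Filter Topology
open scoped BigOperators

set_option linter.unusedSectionVars false

namespace Vale.Agent.P159.H399

open Vale.Agent.P159

/-- the reflection inequality for finite systems -/
def R9 : Prop := ∀ (V : Type) [Fintype V] (J : V → V → ℝ) (ρ : V → V) (p : V → Prop),
  (∀ x, ρ (ρ x) = x) → (∀ x, p (ρ x) ↔ ¬ p x) → (∀ u v, 0 ≤ J u v) → (∀ u v, J u v = J v u) →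
  (∀ u v, J (ρ u) (ρ v) = J u v) → (∀ u v, p u → p v → u ≠ v → J u (ρ v) = 0) →
  ∀ x y, p x → p y → XY.corr J x (ρ y) ≤ XY.corr J x y

/-- reflection in the line of height `-1/2` -/
def rf (u : ℤ × ℤ) : ℤ × ℤ := (u.1, -1 - u.2)

theorem rf_rf (u : ℤ × ℤ) : rf (rf u) = u := by
  unfold rf
  ext <;> simp

theorem A_rf (u v : ℤ × ℤ) : XY.A (rf u) (rf v) = XY.A u v := by
  apply XY.A_congr
  simp only [rf]
  omega

theorem A_cross {u v : ℤ × ℤ} (hu : 0 ≤ u.2) (hv : 0 ≤ v.2) (huv : u ≠ v) :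
    XY.A u (rf v) = 0 := by
  rw [XY.A_eq, if_neg]
  intro h
  apply huv
  simp only [rf] at h
  ext <;> omega

theorem CI_rf (h9 : R9) {b : ℝ} (hb : 0 ≤ b) {y : ℤ × ℤ} (hy : 0 ≤ y.2) :
    XY.CI b 0 (rf y) ≤ XY.CI b 0 y := by
  refine ciSup_le fun R => ?_
  by_cases hm : rf y ∈ box R
  · obtain ⟨S, hS⟩ : ∃ S : Finset (ℤ × ℤ), S = box R ∪ (box R).image rf := ⟨_, rfl⟩
    have hsub : box R ⊆ S := by rw [hS]; exact Finset.subset_union_left
    have hinv : ∀ u ∈ S, rf u ∈ S := by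
      intro u hu
      rw [hS, Finset.mem_union] at hu ⊢
      rcases hu with hu | hu
      · exact Or.inr (Finset.mem_image_of_mem rf hu)
      · obtain ⟨v, hv, rfl⟩ := Finset.mem_image.1 hu
        rw [rf_rf]
        exact Or.inl hv
    have h0 : (0 : ℤ × ℤ) ∈ S := hsub (XY.zero_mem_box R)
    have h1 : rf y ∈ S := hsub hm
    have h2 : y ∈ S := by
      have := hinv _ h1
      rwa [rf_rf] at this
    refine (XY.KS_mono hsub hb 0 (rf y)).trans (le_trans ?_ (XY.KS_le_CI S hb 0 y))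
    rw [XY.KS_of_mem b h0 h1, XY.KS_of_mem b h0 h2]
    exact h9 S (fun u v : S => b * XY.A u v) (fun u => ⟨rf u, hinv u u.2⟩)
      (fun u => 0 ≤ (u : ℤ × ℤ).2) (fun x => Subtype.ext (rf_rf _))
      (fun x => by
        show 0 ≤ (rf x).2 ↔ ¬ 0 ≤ (x : ℤ × ℤ).2
        simp only [rf]
        omega)
      (fun u v => mul_nonneg hb (XY.A_nonneg _ _))
      (fun u v => by rw [XY.A_symm])
      (fun u v => by
        show b * XY.A (rf u) (rf v) = b * XY.A u v
        rw [A_rf])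
      (fun u v hu hv huv => by
        show b * XY.A u (rf v) = 0
        rw [A_cross hu hv fun h => huv (Subtype.ext h), mul_zero])
      ⟨0, h0⟩ ⟨y, h2⟩ (le_refl _) hy
  · have : XY.KS (box R) b 0 (rf y) = 0 := by
      unfold XY.KS
      rw [dif_neg fun h => hm h.2]
    rw [this]
    exact XY.CI_nonneg hb _ _

theorem C_refl2 {b : ℝ} (hb : 0 ≤ b) (x : ℤ × ℤ) : XY.C b (x.1, -x.2) = XY.C b x := by
  have h1 : ((x.1, -x.2) : ℤ × ℤ) = -(XY.refl1 x) := by
    unfold XY.refl1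
    ext <;> simp
  rw [h1, XY.C_neg hb, XY.C_refl1 hb]

/-- one step away from the axis -/
theorem C_step (h9 : R9) {b : ℝ} (hb : 0 ≤ b) (m n : ℤ) (hn : 0 ≤ n) :
    XY.C b (m, n + 1) ≤ XY.C b (m, n) := by
  have h1 := CI_rf h9 hb (y := (m, n)) hn
  have h2 : rf (m, n) = (m, -(n + 1)) := by
    unfold rf
    ext
    · rfl
    · show -1 - n = -(n + 1)
      ring
  rw [h2] at h1
  have h3 := C_refl2 hb ((m, n + 1) : ℤ × ℤ)
  rw [← h3]
  exact h1

theorem C_le_axis (h9 : R9) {b : ℝ} (hb : 0 ≤ b) (m : ℤ) (n : ℕ) :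
    XY.C b (m, (n : ℤ)) ≤ XY.C b (m, 0) := by
  induction n with
  | zero => exact le_rfl
  | succ n ih =>
    push_cast
    exact (C_step h9 hb m n (by positivity)).trans ih

theorem C_le_axis' (h9 : R9) {b : ℝ} (hb : 0 ≤ b) (x : ℤ × ℤ) :
    XY.C b x ≤ XY.C b (x.1, 0) := by
  rcases Int.natAbs_eq x.2 with h | h
  · have h1 := C_le_axis h9 hb x.1 x.2.natAbs
    rw [← h] at h1
    exact h1
  · have h1 := C_le_axis h9 hb x.1 x.2.natAbs
    have h2 : ((x.2.natAbs : ℕ) : ℤ) = -x.2 := by omega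
    rw [h2, C_refl2 hb] at h1
    exact h1

theorem C_abs {b : ℝ} (hb : 0 ≤ b) (m : ℤ) : XY.C b (m, 0) = XY.C b (|m|, 0) := by
  rcases abs_choice m with h | h
  · rw [h]
  · rw [h]
    have := XY.C_refl1 hb ((m, 0) : ℤ × ℤ)
    exact this.symm

/-- comparison with the axis -/
theorem mms (h9 : R9) {b : ℝ} (hb : 0 < b) (x : ℤ × ℤ) :
    corrInf b x ≤ corrInf b (max |x.1| |x.2|, 0) := by
  rw [XY.corrInf_eq hb.le, XY.corrInf_eq hb.le]
  rcases le_total |x.2| |x.1| with h | h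
  · rw [max_eq_left h, ← C_abs hb.le]
    exact C_le_axis' h9 hb.le x
  · rw [max_eq_right h, ← C_abs hb.le]
    have h1 := C_le_axis' h9 hb.le x.swap
    rw [XY.C_swap hb.le] at h1
    exact h1

/-- the two-point function is nonincreasing along the axis -/
theorem axis_anti (h9 : R9) {b : ℝ} (hb : 0 < b) (n : ℕ) :
    corrInf b ((n + 1 : ℤ), 0) ≤ corrInf b ((n : ℤ), 0) := by
  rw [XY.corrInf_eq hb.le, XY.corrInf_eq hb.le]
  have h1 := C_step h9 hb.le 0 n (by positivity)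
  have h2 := XY.C_swap hb.le ((0, (n : ℤ) + 1) : ℤ × ℤ)
  have h3 := XY.C_swap hb.le ((0, (n : ℤ)) : ℤ × ℤ)
  rw [Prod.swap_prod_mk] at h2 h3
  rw [h2, h3]
  exact h1

end Vale.Agent.P159.H399
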